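import Crest.Agent.Helper65.Switch.Kernel

/-!
# S0453, WP-E1: fibre coordinates for two disjoint pairs (edge-set design)

For four distinct vertices `a b u v` (pairs `P = {a,b}`, `Q = {u,v}`) every graph `G` splits by edge
type into `partR G` (edges touching neither pair), `partA G` (touching `P` only), `partC G` (touching
`Q` only) and the block edges `blkEdges (blk G)` (a subset of `{au, av, bu, bv}`).

* `decomp` : `G` is the disjoint union of the four parts;
* `offP_eq_iff`, `offQ_eq_iff` : inside `realizations d`, "same edges off `P`" ⟺ same `key` and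
  same `partC`; mirror for `Q`;
* `inj` : `(key, blk, partA, partC)` determines `G`;
* `image` : the triples `(blk, partA, partC)` occurring in the fibre of `key G₀` are exactly
  `{(M, A, C) : M.tot = m₀, A ∈ As (rho M), C ∈ Cs (kap M)}`.
-/

set_option autoImplicit false

namespace Crest.Agent.Helper67.SW

open Finset Crest.SwitchChain Crest.Agent.Helper65.Switch

variable {n : ℕ}

/-- Four pairwise distinct vertices: the pairs `{a, b}` and `{u, v}`. -/
structure Quad (n : ℕ) where
  a : Fin n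
  b : Fin n
  u : Fin n
  v : Fin n
  hab : a ≠ b
  hau : a ≠ u
  hav : a ≠ v
  hbu : b ≠ u
  hbv : b ≠ v
  huv : u ≠ v

/-- The `2 × 2` block `(au, av, bu, bv)`. -/
abbrev Blk := Bool × Bool × Bool × Bool

namespace Blk

/-- number of block edges at `a`. -/
def rho (M : Blk) : ℕ := (if M.1 then 1 else 0) + (if M.2.1 then 1 else 0)

/-- number of block edges at `u`. -/
def kap (M : Blk) : ℕ := (if M.1 then 1 else 0) + (if M.2.2.1 then 1 else 0)

/-- number of block edges at `b`. -/
def rho' (M : Blk) : ℕ := (if M.2.2.1 then 1 else 0) + (if M.2.2.2 then 1 else 0)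

/-- number of block edges at `v`. -/
def kap' (M : Blk) : ℕ := (if M.2.1 then 1 else 0) + (if M.2.2.2 then 1 else 0)

/-- number of block edges. -/
def tot (M : Blk) : ℕ :=
  (if M.1 then 1 else 0) + (if M.2.1 then 1 else 0) + (if M.2.2.1 then 1 else 0)
    + (if M.2.2.2 then 1 else 0)

theorem rho_add_rho' (M : Blk) : M.rho + M.rho' = M.tot := by
  simp only [rho, rho', tot]; ring

theorem kap_add_kap' (M : Blk) : M.kap + M.kap' = M.tot := by
  simp only [kap, kap', tot]; ring

/-- the "centre +" block `{au, bv}`. -/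
def cp : Blk := (true, false, false, true)

/-- the "centre -" block `{av, bu}`. -/
def cm : Blk := (false, true, true, false)

/-- (T6) the two columns of the block have sum one each. -/
theorem cols_one_iff (M : Blk) :
    (M.1 ≠ M.2.2.1 ∧ M.2.1 ≠ M.2.2.2) ↔ (M.kap = 1 ∧ M.tot = 2) := by
  obtain ⟨x, y, z, w⟩ := M
  cases x <;> cases y <;> cases z <;> cases w <;> simp [kap, tot]

/-- (T6) the first row of the block has sum one. -/
theorem row_one_iff (M : Blk) : M.1 ≠ M.2.1 ↔ M.rho = 1 := by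
  obtain ⟨x, y, z, w⟩ := M
  cases x <;> cases y <;> simp [rho]

end Blk

/-! ### degrees of unions -/

theorem deg_union {E F : Finset (Edge n)} (h : Disjoint E F) (x : Fin n) :
    deg (E ∪ F) x = deg E x + deg F x := by
  rw [deg_def, deg_def, deg_def, Finset.filter_union,
    Finset.card_union_of_disjoint (Finset.disjoint_filter_filter h)]

theorem deg_empty (x : Fin n) : deg (∅ : Finset (Edge n)) x = 0 := by
  rw [deg_def]; simp

theorem deg_eq_zero {E : Finset (Edge n)} {x : Fin n} (h : ∀ e ∈ E, x ∉ e.1) : deg E x = 0 := by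
  rw [deg_def, Finset.card_eq_zero, Finset.filter_eq_empty_iff]
  exact h

theorem deg_singleton (e : Edge n) (x : Fin n) :
    deg ({e} : Finset (Edge n)) x = if x ∈ e.1 then 1 else 0 := by
  rw [deg_def]
  by_cases hx : x ∈ e.1
  · rw [if_pos hx, Finset.filter_true_of_mem (by simpa using hx)]; simp
  · rw [if_neg hx, Finset.filter_false_of_mem (by simpa using hx)]; simp

namespace Quad

variable (q : Quad n)

/-- the block edges. -/
def eau : Edge n := mkE q.a q.u q.hau
def eav : Edge n := mkE q.a q.v q.hav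
def ebu : Edge n := mkE q.b q.u q.hbu
def ebv : Edge n := mkE q.b q.v q.hbv

/-- the vertex set `{a, b, u, v}`. -/
def verts : Finset (Fin n) := {q.a, q.b, q.u, q.v}

theorem mem_verts {x : Fin n} : x ∈ q.verts ↔ x = q.a ∨ x = q.b ∨ x = q.u ∨ x = q.v := by
  simp [verts]

/-- `e` touches the pair `{a, b}`. -/
def tP (e : Edge n) : Prop := q.a ∈ e.1 ∨ q.b ∈ e.1

/-- `e` touches the pair `{u, v}`. -/
def tQ (e : Edge n) : Prop := q.u ∈ e.1 ∨ q.v ∈ e.1

instance (e : Edge n) : Decidable (q.tP e) := by unfold tP; infer_instance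
instance (e : Edge n) : Decidable (q.tQ e) := by unfold tQ; infer_instance

/-- edges touching neither pair. -/
def partR (G : Finset (Edge n)) : Finset (Edge n) := G.filter fun e => ¬ q.tP e ∧ ¬ q.tQ e

/-- edges touching `{a, b}` only. -/
def partA (G : Finset (Edge n)) : Finset (Edge n) := G.filter fun e => q.tP e ∧ ¬ q.tQ e

/-- edges touching `{u, v}` only. -/
def partC (G : Finset (Edge n)) : Finset (Edge n) := G.filter fun e => ¬ q.tP e ∧ q.tQ e

/-- edges touching both pairs. -/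
def partB (G : Finset (Edge n)) : Finset (Edge n) := G.filter fun e => q.tP e ∧ q.tQ e

/-- the block of `G`. -/
def blk (G : Finset (Edge n)) : Blk :=
  (decide (q.eau ∈ G), decide (q.eav ∈ G), decide (q.ebu ∈ G), decide (q.ebv ∈ G))

/-- the edge set of a block. -/
def blkEdges (M : Blk) : Finset (Edge n) :=
  (if M.1 then {q.eau} else ∅) ∪ (if M.2.1 then {q.eav} else ∅) ∪
    (if M.2.2.1 then {q.ebu} else ∅) ∪ (if M.2.2.2 then {q.ebv} else ∅)

/-! ### the four block edges -/

theorem tP_iff_of_eq {x y : Fin n} (h : x ≠ y) :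
    q.tP (mkE x y h) ↔ (q.a = x ∨ q.a = y) ∨ (q.b = x ∨ q.b = y) := by
  simp [tP]

theorem tQ_iff_of_eq {x y : Fin n} (h : x ≠ y) :
    q.tQ (mkE x y h) ↔ (q.u = x ∨ q.u = y) ∨ (q.v = x ∨ q.v = y) := by
  simp [tQ]

theorem eau_ne_eav : q.eau ≠ q.eav := by
  intro h; have := (mkE_eq_iff q.hau q.hav).1 h
  rcases this with ⟨-, h2⟩ | ⟨h1, -⟩
  · exact q.huv h2
  · exact q.hav h1

theorem eau_ne_ebu : q.eau ≠ q.ebu := by
  intro h; have := (mkE_eq_iff q.hau q.hbu).1 h
  rcases this with ⟨h1, -⟩ | ⟨h1, -⟩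
  · exact q.hab h1
  · exact q.hau h1

theorem eau_ne_ebv : q.eau ≠ q.ebv := by
  intro h; have := (mkE_eq_iff q.hau q.hbv).1 h
  rcases this with ⟨h1, -⟩ | ⟨h1, -⟩
  · exact q.hab h1
  · exact q.hav h1

theorem eav_ne_ebu : q.eav ≠ q.ebu := by
  intro h; have := (mkE_eq_iff q.hav q.hbu).1 h
  rcases this with ⟨h1, -⟩ | ⟨h1, -⟩
  · exact q.hab h1
  · exact q.hau h1

theorem eav_ne_ebv : q.eav ≠ q.ebv := by
  intro h; have := (mkE_eq_iff q.hav q.hbv).1 h
  rcases this with ⟨h1, -⟩ | ⟨h1, -⟩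
  · exact q.hab h1
  · exact q.hav h1

theorem ebu_ne_ebv : q.ebu ≠ q.ebv := by
  intro h; have := (mkE_eq_iff q.hbu q.hbv).1 h
  rcases this with ⟨-, h2⟩ | ⟨h1, -⟩
  · exact q.huv h2
  · exact q.hbv h1

/-- An edge touching both pairs is one of the four block edges. -/
theorem eq_block_of_tP_tQ {e : Edge n} (hP : q.tP e) (hQ : q.tQ e) :
    e = q.eau ∨ e = q.eav ∨ e = q.ebu ∨ e = q.ebv := by
  rcases hP with hP | hP <;> rcases hQ with hQ | hQ
  · left; exact edge_eq_mkE e hP hQ q.hau
  · right; left; exact edge_eq_mkE e hP hQ q.hav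
  · right; right; left; exact edge_eq_mkE e hP hQ q.hbu
  · right; right; right; exact edge_eq_mkE e hP hQ q.hbv

theorem tP_eau : q.tP q.eau := Or.inl (by simp [eau])
theorem tP_eav : q.tP q.eav := Or.inl (by simp [eav])
theorem tP_ebu : q.tP q.ebu := Or.inr (by simp [ebu])
theorem tP_ebv : q.tP q.ebv := Or.inr (by simp [ebv])
theorem tQ_eau : q.tQ q.eau := Or.inl (by simp [eau])
theorem tQ_eav : q.tQ q.eav := Or.inr (by simp [eav])
theorem tQ_ebu : q.tQ q.ebu := Or.inl (by simp [ebu])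
theorem tQ_ebv : q.tQ q.ebv := Or.inr (by simp [ebv])

theorem mem_blkEdges {M : Blk} {e : Edge n} :
    e ∈ q.blkEdges M ↔ (e = q.eau ∧ M.1 = true) ∨ (e = q.eav ∧ M.2.1 = true) ∨
      (e = q.ebu ∧ M.2.2.1 = true) ∨ (e = q.ebv ∧ M.2.2.2 = true) := by
  obtain ⟨x, y, z, w⟩ := M
  cases x <;> cases y <;> cases z <;> cases w <;> simp [blkEdges]

theorem tP_of_mem_blkEdges {M : Blk} {e : Edge n} (h : e ∈ q.blkEdges M) : q.tP e := by
  rcases q.mem_blkEdges.1 h with ⟨rfl, -⟩ | ⟨rfl, -⟩ | ⟨rfl, -⟩ | ⟨rfl, -⟩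
  exacts [q.tP_eau, q.tP_eav, q.tP_ebu, q.tP_ebv]

theorem tQ_of_mem_blkEdges {M : Blk} {e : Edge n} (h : e ∈ q.blkEdges M) : q.tQ e := by
  rcases q.mem_blkEdges.1 h with ⟨rfl, -⟩ | ⟨rfl, -⟩ | ⟨rfl, -⟩ | ⟨rfl, -⟩
  exacts [q.tQ_eau, q.tQ_eav, q.tQ_ebu, q.tQ_ebv]

/-- the block part of `G` is the edge set of its block. -/
theorem partB_eq (G : Finset (Edge n)) : q.partB G = q.blkEdges (q.blk G) := by
  ext e
  rw [partB, Finset.mem_filter, mem_blkEdges]
  simp only [blk, decide_eq_true_eq]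
  constructor
  · rintro ⟨he, hP, hQ⟩
    rcases q.eq_block_of_tP_tQ hP hQ with rfl | rfl | rfl | rfl
    · exact Or.inl ⟨rfl, he⟩
    · exact Or.inr (Or.inl ⟨rfl, he⟩)
    · exact Or.inr (Or.inr (Or.inl ⟨rfl, he⟩))
    · exact Or.inr (Or.inr (Or.inr ⟨rfl, he⟩))
  · rintro (⟨rfl, he⟩ | ⟨rfl, he⟩ | ⟨rfl, he⟩ | ⟨rfl, he⟩)
    · exact ⟨he, q.tP_eau, q.tQ_eau⟩
    · exact ⟨he, q.tP_eav, q.tQ_eav⟩
    · exact ⟨he, q.tP_ebu, q.tQ_ebu⟩
    · exact ⟨he, q.tP_ebv, q.tQ_ebv⟩

theorem blk_blkEdges_aux {M : Blk} :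
    (q.eau ∈ q.blkEdges M ↔ M.1 = true) ∧ (q.eav ∈ q.blkEdges M ↔ M.2.1 = true) ∧
      (q.ebu ∈ q.blkEdges M ↔ M.2.2.1 = true) ∧ (q.ebv ∈ q.blkEdges M ↔ M.2.2.2 = true) := by
  have h1 := q.eau_ne_eav; have h2 := q.eau_ne_ebu; have h3 := q.eau_ne_ebv
  have h4 := q.eav_ne_ebu; have h5 := q.eav_ne_ebv; have h6 := q.ebu_ne_ebv
  refine ⟨?_, ?_, ?_, ?_⟩ <;> rw [mem_blkEdges] <;>
    simp [h1, h2, h3, h4, h5, h6, h1.symm, h2.symm, h3.symm, h4.symm, h5.symm, h6.symm]

/-! ### (T1) decomposition -/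

/-- (T1) every graph is the union of its four parts. -/
theorem decomp (G : Finset (Edge n)) :
    G = q.partR G ∪ q.partA G ∪ q.partC G ∪ q.blkEdges (q.blk G) := by
  rw [← partB_eq]
  ext e
  simp only [partR, partA, partC, partB, Finset.mem_union, Finset.mem_filter]
  by_cases hP : q.tP e <;> by_cases hQ : q.tQ e <;> simp [hP, hQ]

theorem disjoint_partR_partA (G G' : Finset (Edge n)) : Disjoint (q.partR G) (q.partA G') := by
  rw [Finset.disjoint_left]; intro e h1 h2
  exact (Finset.mem_filter.1 h1).2.1 (Finset.mem_filter.1 h2).2.1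

theorem disjoint_partR_partC (G G' : Finset (Edge n)) : Disjoint (q.partR G) (q.partC G') := by
  rw [Finset.disjoint_left]; intro e h1 h2
  exact (Finset.mem_filter.1 h1).2.2 (Finset.mem_filter.1 h2).2.2

theorem disjoint_partA_partC (G G' : Finset (Edge n)) : Disjoint (q.partA G) (q.partC G') := by
  rw [Finset.disjoint_left]; intro e h1 h2
  exact (Finset.mem_filter.1 h2).2.1 (Finset.mem_filter.1 h1).2.1

/-! ### typed parts and assembling a graph from them -/

/-- all edges of `R` touch neither pair. -/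
def IsR (R : Finset (Edge n)) : Prop := ∀ e ∈ R, ¬ q.tP e ∧ ¬ q.tQ e

/-- all edges of `A` touch `{a, b}` only. -/
def IsA (A : Finset (Edge n)) : Prop := ∀ e ∈ A, q.tP e ∧ ¬ q.tQ e

/-- all edges of `C` touch `{u, v}` only. -/
def IsC (C : Finset (Edge n)) : Prop := ∀ e ∈ C, ¬ q.tP e ∧ q.tQ e

theorem isR_partR (G : Finset (Edge n)) : q.IsR (q.partR G) :=
  fun _ he => (Finset.mem_filter.1 he).2

theorem isA_partA (G : Finset (Edge n)) : q.IsA (q.partA G) :=
  fun _ he => (Finset.mem_filter.1 he).2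

theorem isC_partC (G : Finset (Edge n)) : q.IsC (q.partC G) :=
  fun _ he => (Finset.mem_filter.1 he).2

/-- the graph with parts `R`, `A`, `C` and block `M`. -/
def assemble (R A C : Finset (Edge n)) (M : Blk) : Finset (Edge n) :=
  R ∪ A ∪ C ∪ q.blkEdges M

theorem mem_assemble {R A C : Finset (Edge n)} {M : Blk} {e : Edge n} :
    e ∈ q.assemble R A C M ↔ e ∈ R ∨ e ∈ A ∨ e ∈ C ∨ e ∈ q.blkEdges M := by
  simp only [assemble, Finset.mem_union, or_assoc]

theorem decomp' (G : Finset (Edge n)) :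
    G = q.assemble (q.partR G) (q.partA G) (q.partC G) (q.blk G) := q.decomp G

section typed

variable {R A C : Finset (Edge n)} {M : Blk}

theorem partR_assemble (hR : q.IsR R) (hA : q.IsA A) (hC : q.IsC C) :
    q.partR (q.assemble R A C M) = R := by
  ext e
  rw [partR, Finset.mem_filter, mem_assemble]
  constructor
  · rintro ⟨(h | h | h | h), hP, hQ⟩
    · exact h
    · exact absurd (hA e h).1 hP
    · exact absurd (hC e h).2 hQ
    · exact absurd (q.tP_of_mem_blkEdges h) hP
  · intro h; exact ⟨Or.inl h, hR e h⟩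

theorem partA_assemble (hR : q.IsR R) (hA : q.IsA A) (hC : q.IsC C) :
    q.partA (q.assemble R A C M) = A := by
  ext e
  rw [partA, Finset.mem_filter, mem_assemble]
  constructor
  · rintro ⟨(h | h | h | h), hP, hQ⟩
    · exact absurd hP (hR e h).1
    · exact h
    · exact absurd hP (hC e h).1
    · exact absurd (q.tQ_of_mem_blkEdges h) hQ
  · intro h; exact ⟨Or.inr (Or.inl h), hA e h⟩

theorem partC_assemble (hR : q.IsR R) (hA : q.IsA A) (hC : q.IsC C) :
    q.partC (q.assemble R A C M) = C := by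
  ext e
  rw [partC, Finset.mem_filter, mem_assemble]
  constructor
  · rintro ⟨(h | h | h | h), hP, hQ⟩
    · exact absurd hQ (hR e h).2
    · exact absurd hQ (hA e h).2
    · exact h
    · exact absurd (q.tP_of_mem_blkEdges h) hP
  · intro h; exact ⟨Or.inr (Or.inr (Or.inl h)), hC e h⟩

theorem blk_assemble (hR : q.IsR R) (hA : q.IsA A) (hC : q.IsC C) :
    q.blk (q.assemble R A C M) = M := by
  have key : ∀ e, q.tP e → q.tQ e → (e ∈ q.assemble R A C M ↔ e ∈ q.blkEdges M) := by
    intro e hP hQ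
    rw [mem_assemble]
    constructor
    · rintro (h | h | h | h)
      · exact absurd hP (hR e h).1
      · exact absurd hQ (hA e h).2
      · exact absurd hP (hC e h).1
      · exact h
    · intro h; exact Or.inr (Or.inr (Or.inr h))
  obtain ⟨h1, h2, h3, h4⟩ := q.blk_blkEdges_aux (M := M)
  obtain ⟨x, y, z, w⟩ := M
  simp only [blk, Prod.mk.injEq]
  refine ⟨?_, ?_, ?_, ?_⟩
  · have := (key _ q.tP_eau q.tQ_eau).trans h1
    cases x <;> simpa using this
  · have := (key _ q.tP_eav q.tQ_eav).trans h2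
    cases y <;> simpa using this
  · have := (key _ q.tP_ebu q.tQ_ebu).trans h3
    cases z <;> simpa using this
  · have := (key _ q.tP_ebv q.tQ_ebv).trans h4
    cases w <;> simpa using this

theorem disjoint_of_isR_isA (hR : q.IsR R) (hA : q.IsA A) : Disjoint R A := by
  rw [Finset.disjoint_left]; intro e h1 h2; exact (hR e h1).1 (hA e h2).1

theorem disjoint_of_isR_isC (hR : q.IsR R) (hC : q.IsC C) : Disjoint R C := by
  rw [Finset.disjoint_left]; intro e h1 h2; exact (hR e h1).2 (hC e h2).2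

theorem disjoint_of_isA_isC (hA : q.IsA A) (hC : q.IsC C) : Disjoint A C := by
  rw [Finset.disjoint_left]; intro e h1 h2; exact (hC e h2).1 (hA e h1).1

theorem disjoint_isR_blkEdges (hR : q.IsR R) : Disjoint R (q.blkEdges M) := by
  rw [Finset.disjoint_left]; intro e h1 h2; exact (hR e h1).1 (q.tP_of_mem_blkEdges h2)

theorem disjoint_isA_blkEdges (hA : q.IsA A) : Disjoint A (q.blkEdges M) := by
  rw [Finset.disjoint_left]; intro e h1 h2; exact (hA e h1).2 (q.tQ_of_mem_blkEdges h2)

theorem disjoint_isC_blkEdges (hC : q.IsC C) : Disjoint C (q.blkEdges M) := by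
  rw [Finset.disjoint_left]; intro e h1 h2; exact (hC e h1).1 (q.tP_of_mem_blkEdges h2)

/-- degrees add over the four parts. -/
theorem deg_assemble (hR : q.IsR R) (hA : q.IsA A) (hC : q.IsC C) (x : Fin n) :
    deg (q.assemble R A C M) x = deg R x + deg A x + deg C x + deg (q.blkEdges M) x := by
  have d1 : Disjoint R A := q.disjoint_of_isR_isA hR hA
  have d2 : Disjoint (R ∪ A) C :=
    Finset.disjoint_union_left.2 ⟨q.disjoint_of_isR_isC hR hC, q.disjoint_of_isA_isC hA hC⟩
  have d3 : Disjoint (R ∪ A ∪ C) (q.blkEdges M) :=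
    Finset.disjoint_union_left.2 ⟨Finset.disjoint_union_left.2
      ⟨q.disjoint_isR_blkEdges hR, q.disjoint_isA_blkEdges hA⟩, q.disjoint_isC_blkEdges hC⟩
  rw [assemble, deg_union d3, deg_union d2, deg_union d1]

end typed

/-! ### degrees of the parts at the four special vertices -/

theorem deg_isR_a {R : Finset (Edge n)} (hR : q.IsR R) : deg R q.a = 0 :=
  deg_eq_zero fun e he h => (hR e he).1 (Or.inl h)

theorem deg_isR_b {R : Finset (Edge n)} (hR : q.IsR R) : deg R q.b = 0 :=
  deg_eq_zero fun e he h => (hR e he).1 (Or.inr h)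

theorem deg_isR_u {R : Finset (Edge n)} (hR : q.IsR R) : deg R q.u = 0 :=
  deg_eq_zero fun e he h => (hR e he).2 (Or.inl h)

theorem deg_isR_v {R : Finset (Edge n)} (hR : q.IsR R) : deg R q.v = 0 :=
  deg_eq_zero fun e he h => (hR e he).2 (Or.inr h)

theorem deg_isA_u {A : Finset (Edge n)} (hA : q.IsA A) : deg A q.u = 0 :=
  deg_eq_zero fun e he h => (hA e he).2 (Or.inl h)

theorem deg_isA_v {A : Finset (Edge n)} (hA : q.IsA A) : deg A q.v = 0 :=
  deg_eq_zero fun e he h => (hA e he).2 (Or.inr h)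

theorem deg_isC_a {C : Finset (Edge n)} (hC : q.IsC C) : deg C q.a = 0 :=
  deg_eq_zero fun e he h => (hC e he).1 (Or.inl h)

theorem deg_isC_b {C : Finset (Edge n)} (hC : q.IsC C) : deg C q.b = 0 :=
  deg_eq_zero fun e he h => (hC e he).1 (Or.inr h)

theorem disjoint_ite_singleton {c c' : Bool} {e e' : Edge n} (h : e ≠ e') :
    Disjoint (if c then ({e} : Finset (Edge n)) else ∅) (if c' then ({e'} : Finset (Edge n)) else ∅) := by
  cases c <;> cases c' <;> simp [h]

theorem deg_ite_singleton (c : Bool) (e : Edge n) (x : Fin n) :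
    deg (if c then ({e} : Finset (Edge n)) else ∅) x = if c = true ∧ x ∈ e.1 then 1 else 0 := by
  cases c
  · simp [deg_empty]
  · simp [deg_singleton]

theorem deg_blkEdges (M : Blk) (x : Fin n) :
    deg (q.blkEdges M) x =
      (if M.1 = true ∧ x ∈ q.eau.1 then 1 else 0) + (if M.2.1 = true ∧ x ∈ q.eav.1 then 1 else 0) +
        (if M.2.2.1 = true ∧ x ∈ q.ebu.1 then 1 else 0) +
          (if M.2.2.2 = true ∧ x ∈ q.ebv.1 then 1 else 0) := by
  have d1 : Disjoint (if M.1 then ({q.eau} : Finset (Edge n)) else ∅)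
      (if M.2.1 then ({q.eav} : Finset (Edge n)) else ∅) := disjoint_ite_singleton q.eau_ne_eav
  have d2 : Disjoint ((if M.1 then ({q.eau} : Finset (Edge n)) else ∅) ∪
      (if M.2.1 then ({q.eav} : Finset (Edge n)) else ∅))
      (if M.2.2.1 then ({q.ebu} : Finset (Edge n)) else ∅) :=
    Finset.disjoint_union_left.2
      ⟨disjoint_ite_singleton q.eau_ne_ebu, disjoint_ite_singleton q.eav_ne_ebu⟩
  have d3 : Disjoint ((if M.1 then ({q.eau} : Finset (Edge n)) else ∅) ∪
      (if M.2.1 then ({q.eav} : Finset (Edge n)) else ∅) ∪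
      (if M.2.2.1 then ({q.ebu} : Finset (Edge n)) else ∅))
      (if M.2.2.2 then ({q.ebv} : Finset (Edge n)) else ∅) :=
    Finset.disjoint_union_left.2 ⟨Finset.disjoint_union_left.2
      ⟨disjoint_ite_singleton q.eau_ne_ebv, disjoint_ite_singleton q.eav_ne_ebv⟩,
      disjoint_ite_singleton q.ebu_ne_ebv⟩
  rw [blkEdges, deg_union d3, deg_union d2, deg_union d1, deg_ite_singleton, deg_ite_singleton,
    deg_ite_singleton, deg_ite_singleton]

theorem deg_blkEdges_a (M : Blk) : deg (q.blkEdges M) q.a = M.rho := by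
  have h1 := q.hab; have h2 := q.hau; have h3 := q.hav
  rw [deg_blkEdges]
  simp [eau, eav, ebu, ebv, Blk.rho, h1, h2, h3]

theorem deg_blkEdges_b (M : Blk) : deg (q.blkEdges M) q.b = M.rho' := by
  have h1 := q.hab.symm; have h2 := q.hbu; have h3 := q.hbv
  rw [deg_blkEdges]
  simp [eau, eav, ebu, ebv, Blk.rho', h1, h2, h3]

theorem deg_blkEdges_u (M : Blk) : deg (q.blkEdges M) q.u = M.kap := by
  have h1 := q.hau.symm; have h2 := q.hbu.symm; have h3 := q.huv
  rw [deg_blkEdges]
  simp [eau, eav, ebu, ebv, Blk.kap, h1, h2, h3]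

theorem deg_blkEdges_v (M : Blk) : deg (q.blkEdges M) q.v = M.kap' := by
  have h1 := q.hav.symm; have h2 := q.hbv.symm; have h3 := q.huv.symm
  rw [deg_blkEdges]
  simp [eau, eav, ebu, ebv, Blk.kap', h1, h2, h3]

theorem deg_blkEdges_other (M : Blk) {w : Fin n} (hw : w ∉ q.verts) :
    deg (q.blkEdges M) w = 0 := by
  rw [mem_verts] at hw
  simp only [not_or] at hw
  obtain ⟨h1, h2, h3, h4⟩ := hw
  rw [deg_blkEdges]
  simp [eau, eav, ebu, ebv, h1, h2, h3, h4]

/-! ### degree equations of a realization in terms of its parts -/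

section realization

variable {d : Fin n → ℕ} {G : Finset (Edge n)}

theorem deg_parts (G : Finset (Edge n)) (x : Fin n) :
    deg G x = deg (q.partR G) x + deg (q.partA G) x + deg (q.partC G) x
      + deg (q.blkEdges (q.blk G)) x := by
  conv_lhs => rw [q.decomp' G]
  exact q.deg_assemble (q.isR_partR G) (q.isA_partA G) (q.isC_partC G) x

theorem deg_a (G : Finset (Edge n)) : deg G q.a = deg (q.partA G) q.a + (q.blk G).rho := by
  rw [q.deg_parts G, q.deg_isR_a (q.isR_partR G), q.deg_isC_a (q.isC_partC G), q.deg_blkEdges_a]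
  ring

theorem deg_b (G : Finset (Edge n)) : deg G q.b = deg (q.partA G) q.b + (q.blk G).rho' := by
  rw [q.deg_parts G, q.deg_isR_b (q.isR_partR G), q.deg_isC_b (q.isC_partC G), q.deg_blkEdges_b]
  ring

theorem deg_u (G : Finset (Edge n)) : deg G q.u = deg (q.partC G) q.u + (q.blk G).kap := by
  rw [q.deg_parts G, q.deg_isR_u (q.isR_partR G), q.deg_isA_u (q.isA_partA G), q.deg_blkEdges_u]
  ring

theorem deg_v (G : Finset (Edge n)) : deg G q.v = deg (q.partC G) q.v + (q.blk G).kap' := by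
  rw [q.deg_parts G, q.deg_isR_v (q.isR_partR G), q.deg_isA_v (q.isA_partA G), q.deg_blkEdges_v]
  ring

theorem deg_other (G : Finset (Edge n)) {w : Fin n} (hw : w ∉ q.verts) :
    deg G w = deg (q.partR G) w + deg (q.partA G) w + deg (q.partC G) w := by
  rw [q.deg_parts G, q.deg_blkEdges_other _ hw]
  ring

end realization

/-! ### the fibre key -/

/-- The fibre key: the `R`-part, the `A`-degrees of the outside vertices, the number of block
edges. -/
def key (G : Finset (Edge n)) : Finset (Edge n) × (Fin n → ℕ) × ℕ :=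
  (q.partR G, fun w => if w ∈ q.verts then 0 else deg (q.partA G) w, (q.blk G).tot)

theorem key_eq_iff {G G' : Finset (Edge n)} :
    q.key G' = q.key G ↔ q.partR G' = q.partR G ∧
      (∀ w, w ∉ q.verts → deg (q.partA G') w = deg (q.partA G) w) ∧
      (q.blk G').tot = (q.blk G).tot := by
  simp only [key, Prod.mk.injEq]
  constructor
  · rintro ⟨h1, h2, h3⟩
    refine ⟨h1, fun w hw => ?_, h3⟩
    have := congrFun h2 w
    simpa [hw] using this
  · rintro ⟨h1, h2, h3⟩
    refine ⟨h1, ?_, h3⟩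
    funext w
    by_cases hw : w ∈ q.verts
    · simp [hw]
    · simp [hw, h2 w hw]

/-! ### (T2) the two class relations inside `realizations d` -/

theorem filter_offP (G : Finset (Edge n)) :
    G.filter (fun e => ∀ x ∈ ({q.a, q.b} : Finset (Fin n)), x ∉ e.1) = q.partR G ∪ q.partC G := by
  ext e
  simp only [Finset.mem_filter, Finset.mem_union, partR, partC, Finset.mem_insert,
    Finset.mem_singleton, forall_eq_or_imp, forall_eq, tP]
  by_cases hQ : q.tQ e <;> simp [hQ, not_or]

theorem filter_offQ (G : Finset (Edge n)) :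
    G.filter (fun e => ∀ x ∈ ({q.u, q.v} : Finset (Fin n)), x ∉ e.1) = q.partR G ∪ q.partA G := by
  ext e
  simp only [Finset.mem_filter, Finset.mem_union, partR, partA, Finset.mem_insert,
    Finset.mem_singleton, forall_eq_or_imp, forall_eq, tQ]
  by_cases hP : q.tP e <;> simp [hP, not_or]

theorem union_RC_eq_iff {G G' : Finset (Edge n)} :
    q.partR G' ∪ q.partC G' = q.partR G ∪ q.partC G ↔
      q.partR G' = q.partR G ∧ q.partC G' = q.partC G := by
  constructor
  · intro h
    have hR : ∀ G₁ G₂ : Finset (Edge n), q.partR G₁ ∪ q.partC G₁ = q.partR G₂ ∪ q.partC G₂ →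
        q.partR G₁ ⊆ q.partR G₂ := by
      intro G₁ G₂ h e he
      have h1 : e ∈ q.partR G₂ ∪ q.partC G₂ := h ▸ Finset.mem_union_left _ he
      rcases Finset.mem_union.1 h1 with h1 | h1
      · exact h1
      · exact absurd (q.isC_partC G₂ e h1).2 (q.isR_partR G₁ e he).2
    have hC : ∀ G₁ G₂ : Finset (Edge n), q.partR G₁ ∪ q.partC G₁ = q.partR G₂ ∪ q.partC G₂ →
        q.partC G₁ ⊆ q.partC G₂ := by
      intro G₁ G₂ h e he
      have h1 : e ∈ q.partR G₂ ∪ q.partC G₂ := h ▸ Finset.mem_union_right _ he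
      rcases Finset.mem_union.1 h1 with h1 | h1
      · exact absurd (q.isC_partC G₁ e he).2 (q.isR_partR G₂ e h1).2
      · exact h1
    exact ⟨Finset.Subset.antisymm (hR _ _ h) (hR _ _ h.symm),
      Finset.Subset.antisymm (hC _ _ h) (hC _ _ h.symm)⟩
  · rintro ⟨h1, h2⟩; rw [h1, h2]

theorem union_RA_eq_iff {G G' : Finset (Edge n)} :
    q.partR G' ∪ q.partA G' = q.partR G ∪ q.partA G ↔
      q.partR G' = q.partR G ∧ q.partA G' = q.partA G := by
  constructor
  · intro h
    have hR : ∀ G₁ G₂ : Finset (Edge n), q.partR G₁ ∪ q.partA G₁ = q.partR G₂ ∪ q.partA G₂ →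
        q.partR G₁ ⊆ q.partR G₂ := by
      intro G₁ G₂ h e he
      have h1 : e ∈ q.partR G₂ ∪ q.partA G₂ := h ▸ Finset.mem_union_left _ he
      rcases Finset.mem_union.1 h1 with h1 | h1
      · exact h1
      · exact absurd (q.isA_partA G₂ e h1).1 (q.isR_partR G₁ e he).1
    have hA : ∀ G₁ G₂ : Finset (Edge n), q.partR G₁ ∪ q.partA G₁ = q.partR G₂ ∪ q.partA G₂ →
        q.partA G₁ ⊆ q.partA G₂ := by
      intro G₁ G₂ h e he
      have h1 : e ∈ q.partR G₂ ∪ q.partA G₂ := h ▸ Finset.mem_union_right _ he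
      rcases Finset.mem_union.1 h1 with h1 | h1
      · exact absurd (q.isA_partA G₁ e he).1 (q.isR_partR G₂ e h1).1
      · exact h1
    exact ⟨Finset.Subset.antisymm (hR _ _ h) (hR _ _ h.symm),
      Finset.Subset.antisymm (hA _ _ h) (hA _ _ h.symm)⟩
  · rintro ⟨h1, h2⟩; rw [h1, h2]

variable {d : Fin n → ℕ}

/-- (T2) for realizations: same edges off `{a, b}` iff same key and same `C`-part. -/
theorem offP_eq_iff {G G' : Finset (Edge n)} (hG : G ∈ realizations d)
    (hG' : G' ∈ realizations d) :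
    (G'.filter (fun e => ∀ x ∈ ({q.a, q.b} : Finset (Fin n)), x ∉ e.1) =
        G.filter (fun e => ∀ x ∈ ({q.a, q.b} : Finset (Fin n)), x ∉ e.1)) ↔
      q.key G' = q.key G ∧ q.partC G' = q.partC G := by
  rw [filter_offP, filter_offP, union_RC_eq_iff, key_eq_iff]
  rw [mem_realizations] at hG hG'
  constructor
  · rintro ⟨hR, hC⟩
    refine ⟨⟨hR, fun w hw => ?_, ?_⟩, hC⟩
    · have e1 := q.deg_other G hw
      have e2 := q.deg_other G' hw
      rw [hG w] at e1; rw [hG' w, hR, hC] at e2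
      omega
    · have e1 := q.deg_u G; have e2 := q.deg_u G'
      have e3 := q.deg_v G; have e4 := q.deg_v G'
      rw [hG] at e1 e3; rw [hG', hC] at e2 e4
      have t1 := (q.blk G).kap_add_kap'; have t2 := (q.blk G').kap_add_kap'
      omega
  · rintro ⟨⟨hR, -, -⟩, hC⟩
    exact ⟨hR, hC⟩

/-- (T2) for realizations: same edges off `{u, v}` iff same key and same `A`-part. -/
theorem offQ_eq_iff {G G' : Finset (Edge n)} (hG : G ∈ realizations d)
    (hG' : G' ∈ realizations d) :
    (G'.filter (fun e => ∀ x ∈ ({q.u, q.v} : Finset (Fin n)), x ∉ e.1) =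
        G.filter (fun e => ∀ x ∈ ({q.u, q.v} : Finset (Fin n)), x ∉ e.1)) ↔
      q.key G' = q.key G ∧ q.partA G' = q.partA G := by
  rw [filter_offQ, filter_offQ, union_RA_eq_iff, key_eq_iff]
  rw [mem_realizations] at hG hG'
  constructor
  · rintro ⟨hR, hA⟩
    refine ⟨⟨hR, fun w _ => by rw [hA], ?_⟩, hA⟩
    have e1 := q.deg_a G; have e2 := q.deg_a G'
    have e3 := q.deg_b G; have e4 := q.deg_b G'
    rw [hG] at e1 e3; rw [hG', hA] at e2 e4
    have t1 := (q.blk G).rho_add_rho'; have t2 := (q.blk G').rho_add_rho'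
    omega
  · rintro ⟨⟨hR, -, -⟩, hA⟩
    exact ⟨hR, hA⟩

/-! ### (T3) injectivity -/

/-- (T3) the coordinates determine the graph. -/
theorem inj {G G' : Finset (Edge n)} (hk : q.key G = q.key G') (hM : q.blk G = q.blk G')
    (hA : q.partA G = q.partA G') (hC : q.partC G = q.partC G') : G = G' := by
  have hR : q.partR G = q.partR G' := (q.key_eq_iff.1 hk).1
  rw [q.decomp' G, q.decomp' G', hR, hM, hA, hC]

/-! ### (T4) the image of the coordinate map on a fibre -/

/-- the admissible `A`-parts for block row sum `r` in the fibre of `G₀`. -/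
noncomputable def As (d : Fin n → ℕ) (G₀ : Finset (Edge n)) (r : ℕ) : Finset (Finset (Edge n)) := by
  classical
  exact (Finset.univ : Finset (Finset (Edge n))).filter fun A =>
    q.IsA A ∧ deg A q.a + r = d q.a ∧ deg A q.b + (q.blk G₀).tot = d q.b + r ∧
      ∀ w, w ∉ q.verts → deg A w = deg (q.partA G₀) w

/-- the admissible `C`-parts for block column sum `k` in the fibre of `G₀`. -/
noncomputable def Cs (d : Fin n → ℕ) (G₀ : Finset (Edge n)) (k : ℕ) : Finset (Finset (Edge n)) := by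
  classical
  exact (Finset.univ : Finset (Finset (Edge n))).filter fun C =>
    q.IsC C ∧ deg C q.u + k = d q.u ∧ deg C q.v + (q.blk G₀).tot = d q.v + k ∧
      ∀ w, w ∉ q.verts → deg C w = deg (q.partC G₀) w

theorem mem_As {G₀ A : Finset (Edge n)} {r : ℕ} :
    A ∈ q.As d G₀ r ↔ q.IsA A ∧ deg A q.a + r = d q.a ∧
      deg A q.b + (q.blk G₀).tot = d q.b + r ∧
      ∀ w, w ∉ q.verts → deg A w = deg (q.partA G₀) w := by
  classical
  simp [As]

theorem mem_Cs {G₀ C : Finset (Edge n)} {k : ℕ} :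
    C ∈ q.Cs d G₀ k ↔ q.IsC C ∧ deg C q.u + k = d q.u ∧
      deg C q.v + (q.blk G₀).tot = d q.v + k ∧
      ∀ w, w ∉ q.verts → deg C w = deg (q.partC G₀) w := by
  classical
  simp [Cs]

/-- `As`, `Cs` depend on `G₀` only through its key (and its `C`-degrees off the four vertices,
which are determined by the key inside `realizations d`). -/
theorem As_congr {G₀ G₁ : Finset (Edge n)} (h : q.key G₁ = q.key G₀) (r : ℕ) :
    q.As d G₁ r = q.As d G₀ r := by
  obtain ⟨-, h2, h3⟩ := q.key_eq_iff.1 h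
  ext A
  rw [mem_As, mem_As, h3]
  constructor
  · rintro ⟨a1, a2, a3, a4⟩; exact ⟨a1, a2, a3, fun w hw => (a4 w hw).trans (h2 w hw)⟩
  · rintro ⟨a1, a2, a3, a4⟩; exact ⟨a1, a2, a3, fun w hw => (a4 w hw).trans (h2 w hw).symm⟩

theorem Cs_congr {G₀ G₁ : Finset (Edge n)} (hG₀ : G₀ ∈ realizations d)
    (hG₁ : G₁ ∈ realizations d) (h : q.key G₁ = q.key G₀) (k : ℕ) :
    q.Cs d G₁ k = q.Cs d G₀ k := by
  obtain ⟨h1, h2, h3⟩ := q.key_eq_iff.1 h
  rw [mem_realizations] at hG₀ hG₁
  have hCw : ∀ w, w ∉ q.verts → deg (q.partC G₁) w = deg (q.partC G₀) w := by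
    intro w hw
    have e1 := q.deg_other G₀ hw
    have e2 := q.deg_other G₁ hw
    rw [hG₀ w] at e1; rw [hG₁ w, h1, h2 w hw] at e2
    omega
  ext C
  rw [mem_Cs, mem_Cs, h3]
  constructor
  · rintro ⟨a1, a2, a3, a4⟩; exact ⟨a1, a2, a3, fun w hw => (a4 w hw).trans (hCw w hw)⟩
  · rintro ⟨a1, a2, a3, a4⟩; exact ⟨a1, a2, a3, fun w hw => (a4 w hw).trans (hCw w hw).symm⟩

/-- (T4), direction "coordinates of a fibre member are admissible". -/
theorem coords_mem {G₀ G : Finset (Edge n)} (hG₀ : G₀ ∈ realizations d)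
    (hG : G ∈ realizations d) (hk : q.key G = q.key G₀) :
    (q.blk G).tot = (q.blk G₀).tot ∧ q.partA G ∈ q.As d G₀ (q.blk G).rho ∧
      q.partC G ∈ q.Cs d G₀ (q.blk G).kap := by
  obtain ⟨h1, h2, h3⟩ := q.key_eq_iff.1 hk
  have hG0 := hG₀
  rw [mem_realizations] at hG hG₀
  refine ⟨h3, ?_, ?_⟩
  · rw [mem_As]
    refine ⟨q.isA_partA G, ?_, ?_, h2⟩
    · rw [← hG q.a, q.deg_a G]
    · have e := q.deg_b G
      rw [hG] at e
      have t := (q.blk G).rho_add_rho'
      omega
  · rw [mem_Cs]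
    refine ⟨q.isC_partC G, ?_, ?_, ?_⟩
    · rw [← hG q.u, q.deg_u G]
    · have e := q.deg_v G
      rw [hG] at e
      have t := (q.blk G).kap_add_kap'
      omega
    · intro w hw
      have e1 := q.deg_other G₀ hw
      have e2 := q.deg_other G hw
      rw [hG₀ w] at e1; rw [hG w, h1, h2 w hw] at e2
      omega

/-- (T4), direction "every admissible triple is realised": the graph with `R`-part of `G₀` and the
prescribed block, `A`-part and `C`-part lies in `realizations d`, in the fibre of `G₀`, and has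
the prescribed coordinates. -/
theorem assemble_mem {G₀ : Finset (Edge n)} (hG₀ : G₀ ∈ realizations d) {M : Blk}
    {A C : Finset (Edge n)} (hM : M.tot = (q.blk G₀).tot) (hA : A ∈ q.As d G₀ M.rho)
    (hC : C ∈ q.Cs d G₀ M.kap) :
    q.assemble (q.partR G₀) A C M ∈ realizations d ∧
      q.key (q.assemble (q.partR G₀) A C M) = q.key G₀ ∧
      q.blk (q.assemble (q.partR G₀) A C M) = M ∧
      q.partA (q.assemble (q.partR G₀) A C M) = A ∧
      q.partC (q.assemble (q.partR G₀) A C M) = C := by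
  rw [mem_As] at hA
  rw [mem_Cs] at hC
  obtain ⟨tA, a1, a2, a3⟩ := hA
  obtain ⟨tC, c1, c2, c3⟩ := hC
  have tR := q.isR_partR G₀
  have pR := q.partR_assemble (M := M) tR tA tC
  have pA := q.partA_assemble (M := M) tR tA tC
  have pC := q.partC_assemble (M := M) tR tA tC
  have pM := q.blk_assemble (M := M) tR tA tC
  refine ⟨?_, ?_, pM, pA, pC⟩
  · rw [mem_realizations]
    have hG0 := hG₀
    rw [mem_realizations] at hG0
    intro x
    by_cases hx : x ∈ q.verts
    · rw [q.deg_assemble tR tA tC]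
      rcases q.mem_verts.1 hx with rfl | rfl | rfl | rfl
      · rw [q.deg_isR_a tR, q.deg_isC_a tC, q.deg_blkEdges_a]; omega
      · rw [q.deg_isR_b tR, q.deg_isC_b tC, q.deg_blkEdges_b]
        have t := M.rho_add_rho'
        omega
      · rw [q.deg_isR_u tR, q.deg_isA_u tA, q.deg_blkEdges_u]; omega
      · rw [q.deg_isR_v tR, q.deg_isA_v tA, q.deg_blkEdges_v]
        have t := M.kap_add_kap'
        omega
    · rw [q.deg_assemble tR tA tC, q.deg_blkEdges_other _ hx, a3 x hx, c3 x hx, ← hG0 x,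
        q.deg_other G₀ hx]
      ring
  · rw [key_eq_iff, pR, pA, pM]
    exact ⟨rfl, a3, hM⟩

/-- (T4) the triples `(blk, partA, partC)` occurring in the fibre of `key G₀` are exactly the
admissible ones. -/
theorem image {G₀ : Finset (Edge n)} (hG₀ : G₀ ∈ realizations d) (M : Blk)
    (A C : Finset (Edge n)) :
    (∃ G ∈ realizations d, q.key G = q.key G₀ ∧ q.blk G = M ∧ q.partA G = A ∧ q.partC G = C) ↔
      (M.tot = (q.blk G₀).tot ∧ A ∈ q.As d G₀ M.rho ∧ C ∈ q.Cs d G₀ M.kap) := by
  constructor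
  · rintro ⟨G, hG, hk, rfl, rfl, rfl⟩
    exact q.coords_mem hG₀ hG hk
  · rintro ⟨hM, hA, hC⟩
    obtain ⟨h1, h2, h3, h4, h5⟩ := q.assemble_mem hG₀ hM hA hC
    exact ⟨_, h1, h2, h3, h4, h5⟩

/-! ### (T5) the switch between the two centre states -/

theorem blkEdges_cp : q.blkEdges Blk.cp = {q.eau, q.ebv} := by
  ext e; simp [blkEdges, Blk.cp]

theorem blkEdges_cm : q.blkEdges Blk.cm = {q.eav, q.ebu} := by
  ext e; simp [blkEdges, Blk.cm]

/-- (T5) if the block of `G` is `cp = {au, bv}`, the switch `- au - bv + av + bu` is the graph with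
the same `R`, `A`, `C` parts and block `cm`. -/
theorem switch_cp {G : Finset (Edge n)} (h : q.blk G = Blk.cp) :
    G \ {q.eau, q.ebv} ∪ {q.eav, q.ebu} =
      q.assemble (q.partR G) (q.partA G) (q.partC G) Blk.cm := by
  have hd := q.decomp' G
  rw [h] at hd
  have tR := q.isR_partR G; have tA := q.isA_partA G; have tC := q.isC_partC G
  ext e
  rw [mem_assemble, blkEdges_cm, Finset.mem_union, Finset.mem_sdiff]
  constructor
  · rintro (⟨he, hne⟩ | he)
    · rw [hd, mem_assemble, blkEdges_cp] at he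
      rcases he with he | he | he | he
      · exact Or.inl he
      · exact Or.inr (Or.inl he)
      · exact Or.inr (Or.inr (Or.inl he))
      · exact absurd he hne
    · exact Or.inr (Or.inr (Or.inr he))
  · rintro (he | he | he | he)
    · refine Or.inl ⟨by rw [hd, mem_assemble]; exact Or.inl he, fun hh => ?_⟩
      rw [← blkEdges_cp] at hh
      exact (tR e he).1 (q.tP_of_mem_blkEdges hh)
    · refine Or.inl ⟨by rw [hd, mem_assemble]; exact Or.inr (Or.inl he), fun hh => ?_⟩
      rw [← blkEdges_cp] at hh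
      exact (tA e he).2 (q.tQ_of_mem_blkEdges hh)
    · refine Or.inl ⟨by rw [hd, mem_assemble]; exact Or.inr (Or.inr (Or.inl he)), fun hh => ?_⟩
      rw [← blkEdges_cp] at hh
      exact (tC e he).1 (q.tP_of_mem_blkEdges hh)
    · exact Or.inr he

/-- mirror of `switch_cp`. -/
theorem switch_cm {G : Finset (Edge n)} (h : q.blk G = Blk.cm) :
    G \ {q.eav, q.ebu} ∪ {q.eau, q.ebv} =
      q.assemble (q.partR G) (q.partA G) (q.partC G) Blk.cp := by
  have hd := q.decomp' G
  rw [h] at hd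
  have tR := q.isR_partR G; have tA := q.isA_partA G; have tC := q.isC_partC G
  ext e
  rw [mem_assemble, blkEdges_cp, Finset.mem_union, Finset.mem_sdiff]
  constructor
  · rintro (⟨he, hne⟩ | he)
    · rw [hd, mem_assemble, blkEdges_cm] at he
      rcases he with he | he | he | he
      · exact Or.inl he
      · exact Or.inr (Or.inl he)
      · exact Or.inr (Or.inr (Or.inl he))
      · exact absurd he hne
    · exact Or.inr (Or.inr (Or.inr he))
  · rintro (he | he | he | he)
    · refine Or.inl ⟨by rw [hd, mem_assemble]; exact Or.inl he, fun hh => ?_⟩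
      rw [← blkEdges_cm] at hh
      exact (tR e he).1 (q.tP_of_mem_blkEdges hh)
    · refine Or.inl ⟨by rw [hd, mem_assemble]; exact Or.inr (Or.inl he), fun hh => ?_⟩
      rw [← blkEdges_cm] at hh
      exact (tA e he).2 (q.tQ_of_mem_blkEdges hh)
    · refine Or.inl ⟨by rw [hd, mem_assemble]; exact Or.inr (Or.inr (Or.inl he)), fun hh => ?_⟩
      rw [← blkEdges_cm] at hh
      exact (tC e he).1 (q.tP_of_mem_blkEdges hh)
    · exact Or.inr he

/-- the coordinates of `blk` in terms of edge membership. -/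
theorem blk_fst (G : Finset (Edge n)) : (q.blk G).1 = true ↔ q.eau ∈ G := by simp [blk]
theorem blk_snd (G : Finset (Edge n)) : (q.blk G).2.1 = true ↔ q.eav ∈ G := by simp [blk]
theorem blk_trd (G : Finset (Edge n)) : (q.blk G).2.2.1 = true ↔ q.ebu ∈ G := by simp [blk]
theorem blk_fth (G : Finset (Edge n)) : (q.blk G).2.2.2 = true ↔ q.ebv ∈ G := by simp [blk]

end Quad

end Crest.Agent.Helper67.SW
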