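import Mathlib

/-!
# S0453, joint between WP-E1 (graph fibres) and WP-E2 (abstract two-pair lemma): STATEMENT ONLY

`TwoPairSpec` is the two-pair inequality of `notes/s0453/PROOF.md` §5 on ONE coordinatised fibre,
in exactly the shape in which the graph side (`Crest.Agent.Helper67.SW.TwoPairGraph`) consumes it.
Mathlib only; no proof here.

A fibre is a finite set `Φ` of states (of any type `X`) with three coordinates
`M : X → Bool × Bool × Bool × Bool` (the block `(x_ac, x_ae, x_bc, x_be)`), `A : X → α`, `C : X → γ`: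

* `(M, A, C)` is injective on `Φ`;
* its image is `{(M, A, C) : |M| = m, A ∈ As (ρ M), C ∈ Cs (κ M)}` with `ρ M = x_ac + x_ae`,
  `κ M = x_ac + x_bc`, and the families `As`, `Cs` are pairwise disjoint (so `A` determines `ρ`
  and `C` determines `κ`);
* the classes of the first pair `{a, b}` are the sets "same `C`", those of the second pair `{c, e}`
  are the sets "same `A`";
* the centre states are those with `M = (1,0,0,1)` (`ac, be` present: "cp") or `M = (0,1,1,0)`
  ("cm"); `sw` maps a `cp` state to the `cm` state with the same `A`, `C` (the switch).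

Conclusion (helper10's `Sw - Bad - Bad' ≤ 2 * IPair`, restricted to the fibre):
`∑_{cp states} (f x - f (sw x))² - Bad_C - Bad_A ≤ 2 ∑_Φ (f - avg_C f)(f - avg_A f)` where
`Bad_C = ∑_{centre x} (avg of f over the centre states of the C-class of x - avg over that class)²`.
For `m ≠ 2` there is no centre state and the claim is the product case `0 ≤ ∑ (f - avg_C f)(f - avg_A f)`.
-/

set_option autoImplicit false

namespace Crest.Agent.Helper67.SW

open Finset

/-- the centre predicate on blocks `(x_ac, x_ae, x_bc, x_be)`: the block is a permutation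
matrix. -/
def IsCtr (M : Bool × Bool × Bool × Bool) : Prop :=
  M = (true, false, false, true) ∨ M = (false, true, true, false)

instance : DecidablePred IsCtr := fun M => by unfold IsCtr; infer_instance

/-- **The two-pair inequality on a coordinatised fibre** (statement). -/
def TwoPairSpec : Prop :=
  ∀ (X α γ : Type) [DecidableEq α] [DecidableEq γ]
    (Φ : Finset X) (M : X → Bool × Bool × Bool × Bool) (A : X → α) (C : X → γ)
    (m : ℕ) (As : ℕ → Finset α) (Cs : ℕ → Finset γ) (sw : X → X) (f : X → ℝ),
    (∀ x ∈ Φ, ∀ y ∈ Φ, M x = M y → A x = A y → C x = C y → x = y) →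
    (∀ M0 a c, (∃ x ∈ Φ, M x = M0 ∧ A x = a ∧ C x = c) ↔
        ((if M0.1 then 1 else 0) + (if M0.2.1 then 1 else 0) + (if M0.2.2.1 then 1 else 0)
            + (if M0.2.2.2 then 1 else 0) = m ∧
          a ∈ As ((if M0.1 then 1 else 0) + (if M0.2.1 then 1 else 0)) ∧
          c ∈ Cs ((if M0.1 then 1 else 0) + (if M0.2.2.1 then 1 else 0)))) →
    (∀ r r', r ≠ r' → Disjoint (As r) (As r')) →
    (∀ k k', k ≠ k' → Disjoint (Cs k) (Cs k')) →
    (∀ x ∈ Φ, M x = (true, false, false, true) →
        sw x ∈ Φ ∧ M (sw x) = (false, true, true, false) ∧ A (sw x) = A x ∧ C (sw x) = C x) →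
    ∑ x ∈ Φ.filter (fun x => M x = (true, false, false, true)), (f x - f (sw x)) ^ 2
      - ∑ x ∈ Φ.filter (fun x => IsCtr (M x)),
          ((∑ y ∈ Φ.filter (fun y => C y = C x ∧ IsCtr (M y)), f y) /
              ((Φ.filter (fun y => C y = C x ∧ IsCtr (M y))).card : ℝ)
            - (∑ y ∈ Φ.filter (fun y => C y = C x), f y) /
              ((Φ.filter (fun y => C y = C x)).card : ℝ)) ^ 2
      - ∑ x ∈ Φ.filter (fun x => IsCtr (M x)),
          ((∑ y ∈ Φ.filter (fun y => A y = A x ∧ IsCtr (M y)), f y) /
              ((Φ.filter (fun y => A y = A x ∧ IsCtr (M y))).card : ℝ)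
            - (∑ y ∈ Φ.filter (fun y => A y = A x), f y) /
              ((Φ.filter (fun y => A y = A x)).card : ℝ)) ^ 2
      ≤ 2 * ∑ x ∈ Φ,
          (f x - (∑ y ∈ Φ.filter (fun y => C y = C x), f y) /
              ((Φ.filter (fun y => C y = C x)).card : ℝ)) *
          (f x - (∑ y ∈ Φ.filter (fun y => A y = A x), f y) /
              ((Φ.filter (fun y => A y = A x)).card : ℝ))

end Crest.Agent.Helper67.SW
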