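import Crest.Agent.Helper67.SW.TwoPairSpec

/-!
# S0453 WP-E1: from the fibre form `TwoPairSpec` to a global two-pair inequality (Mathlib only)

`twoPair_global`: if a finite set `Ω` carries a key `lam` and coordinates `M, A, C` such that every
`lam`-fibre is a coordinatised fibre in the sense of `TwoPairSpec`, then the two-pair inequality
holds on `Ω` for the classes "same `(lam, C)`" and "same `(lam, A)`".
-/

set_option autoImplicit false

namespace Crest.Agent.Helper67.SW

open Finset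

section fiberwise

variable {X Λ : Type*} [DecidableEq Λ]

theorem sum_filter_fiberwise (Ω : Finset X) (lam : X → Λ) (p : X → Prop) [DecidablePred p]
    (F : X → ℝ) :
    ∑ x ∈ Ω.filter p, F x
      = ∑ φ ∈ Ω.image lam, ∑ x ∈ (Ω.filter (fun x => lam x = φ)).filter p, F x := by
  rw [← Finset.sum_fiberwise_of_maps_to (s := Ω.filter p) (t := Ω.image lam) (g := lam)
    (fun x hx => Finset.mem_image_of_mem _ (Finset.mem_filter.1 hx).1) F]
  refine Finset.sum_congr rfl (fun φ _ => ?_)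
  rw [Finset.filter_comm]

theorem sum_fiberwise' (Ω : Finset X) (lam : X → Λ) (F : X → ℝ) :
    ∑ x ∈ Ω, F x = ∑ φ ∈ Ω.image lam, ∑ x ∈ Ω.filter (fun x => lam x = φ), F x :=
  (Finset.sum_fiberwise_of_maps_to (fun x hx => Finset.mem_image_of_mem _ hx) F).symm

/-- an inequality `S₁ - S₂ - S₃ ≤ 2 * S₄` between (filtered) sums over `Ω` follows from the same
inequality on every fibre of `lam`. -/
theorem fiberwise4 (Ω : Finset X) (lam : X → Λ) (p1 p2 p3 : X → Prop) [DecidablePred p1]
    [DecidablePred p2] [DecidablePred p3] (F1 F2 F3 R : X → ℝ)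
    (h : ∀ x0 ∈ Ω, ∑ x ∈ (Ω.filter (fun x => lam x = lam x0)).filter p1, F1 x
        - ∑ x ∈ (Ω.filter (fun x => lam x = lam x0)).filter p2, F2 x
        - ∑ x ∈ (Ω.filter (fun x => lam x = lam x0)).filter p3, F3 x
        ≤ 2 * ∑ x ∈ Ω.filter (fun x => lam x = lam x0), R x) :
    ∑ x ∈ Ω.filter p1, F1 x - ∑ x ∈ Ω.filter p2, F2 x - ∑ x ∈ Ω.filter p3, F3 x
      ≤ 2 * ∑ x ∈ Ω, R x := by
  rw [sum_filter_fiberwise Ω lam p1, sum_filter_fiberwise Ω lam p2,
    sum_filter_fiberwise Ω lam p3, sum_fiberwise' Ω lam R, ← Finset.sum_sub_distrib,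
    ← Finset.sum_sub_distrib, Finset.mul_sum]
  refine Finset.sum_le_sum (fun φ hφ => ?_)
  obtain ⟨x0, hx0, rfl⟩ := Finset.mem_image.1 hφ
  exact h x0 hx0

end fiberwise

/-- **Global two-pair inequality from the fibre form.** -/
theorem twoPair_global (hS : TwoPairSpec) {X α γ Λ : Type} [DecidableEq α] [DecidableEq γ]
    [DecidableEq Λ] (Ω : Finset X) (lam : X → Λ) (M : X → Bool × Bool × Bool × Bool)
    (A : X → α) (C : X → γ) (sw : X → X) (f : X → ℝ)
    (hinj : ∀ x ∈ Ω, ∀ y ∈ Ω, lam x = lam y → M x = M y → A x = A y → C x = C y → x = y)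
    (himg : ∀ x0 ∈ Ω, ∃ (m : ℕ) (As : ℕ → Finset α) (Cs : ℕ → Finset γ),
      (∀ M0 a c, (∃ x ∈ Ω, lam x = lam x0 ∧ M x = M0 ∧ A x = a ∧ C x = c) ↔
        ((if M0.1 then 1 else 0) + (if M0.2.1 then 1 else 0) + (if M0.2.2.1 then 1 else 0)
            + (if M0.2.2.2 then 1 else 0) = m ∧
          a ∈ As ((if M0.1 then 1 else 0) + (if M0.2.1 then 1 else 0)) ∧
          c ∈ Cs ((if M0.1 then 1 else 0) + (if M0.2.2.1 then 1 else 0)))) ∧
      (∀ r r', r ≠ r' → Disjoint (As r) (As r')) ∧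
      (∀ k k', k ≠ k' → Disjoint (Cs k) (Cs k')))
    (hsw : ∀ x ∈ Ω, M x = (true, false, false, true) →
        sw x ∈ Ω ∧ lam (sw x) = lam x ∧ M (sw x) = (false, true, true, false) ∧
          A (sw x) = A x ∧ C (sw x) = C x) :
    ∑ x ∈ Ω.filter (fun x => M x = (true, false, false, true)), (f x - f (sw x)) ^ 2
      - ∑ x ∈ Ω.filter (fun x => IsCtr (M x)),
          ((∑ y ∈ Ω.filter (fun y => lam y = lam x ∧ C y = C x ∧ IsCtr (M y)), f y) /
              ((Ω.filter (fun y => lam y = lam x ∧ C y = C x ∧ IsCtr (M y))).card : ℝ)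
            - (∑ y ∈ Ω.filter (fun y => lam y = lam x ∧ C y = C x), f y) /
              ((Ω.filter (fun y => lam y = lam x ∧ C y = C x)).card : ℝ)) ^ 2
      - ∑ x ∈ Ω.filter (fun x => IsCtr (M x)),
          ((∑ y ∈ Ω.filter (fun y => lam y = lam x ∧ A y = A x ∧ IsCtr (M y)), f y) /
              ((Ω.filter (fun y => lam y = lam x ∧ A y = A x ∧ IsCtr (M y))).card : ℝ)
            - (∑ y ∈ Ω.filter (fun y => lam y = lam x ∧ A y = A x), f y) /
              ((Ω.filter (fun y => lam y = lam x ∧ A y = A x)).card : ℝ)) ^ 2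
      ≤ 2 * ∑ x ∈ Ω,
          (f x - (∑ y ∈ Ω.filter (fun y => lam y = lam x ∧ C y = C x), f y) /
              ((Ω.filter (fun y => lam y = lam x ∧ C y = C x)).card : ℝ)) *
          (f x - (∑ y ∈ Ω.filter (fun y => lam y = lam x ∧ A y = A x), f y) /
              ((Ω.filter (fun y => lam y = lam x ∧ A y = A x)).card : ℝ)) := by
  refine fiberwise4 Ω lam _ _ _ _ _ _ _ (fun x0 hx0 => ?_)
  obtain ⟨m, As, Cs, himg0, hdA, hdC⟩ := himg x0 hx0
  have hΦ : ∀ x, x ∈ Ω.filter (fun x => lam x = lam x0) ↔ x ∈ Ω ∧ lam x = lam x0 :=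
    fun x => Finset.mem_filter
  have key : ∀ x ∈ Ω.filter (fun x => lam x = lam x0), ∀ (P : X → Prop) [DecidablePred P],
      Ω.filter (fun y => lam y = lam x ∧ P y) = (Ω.filter (fun x => lam x = lam x0)).filter P := by
    intro x hx P _
    ext y
    simp only [Finset.mem_filter, (hΦ x).1 hx |>.2, and_assoc]
  have h := hS X α γ (Ω.filter (fun x => lam x = lam x0)) M A C m As Cs sw f
    (fun x hx y hy => hinj x ((hΦ x).1 hx).1 y ((hΦ y).1 hy).1
      (((hΦ x).1 hx).2.trans ((hΦ y).1 hy).2.symm))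
    (fun M0 a c => ⟨fun ⟨x, hx, h1, h2, h3⟩ =>
        (himg0 M0 a c).1 ⟨x, ((hΦ x).1 hx).1, ((hΦ x).1 hx).2, h1, h2, h3⟩,
      fun hh => by
        obtain ⟨x, hxΩ, hl, h1, h2, h3⟩ := (himg0 M0 a c).2 hh
        exact ⟨x, (hΦ x).2 ⟨hxΩ, hl⟩, h1, h2, h3⟩⟩)
    hdA hdC
    (fun x hx hM => by
      obtain ⟨h1, h2, h3, h4, h5⟩ := hsw x ((hΦ x).1 hx).1 hM
      exact ⟨(hΦ _).2 ⟨h1, h2.trans ((hΦ x).1 hx).2⟩, h3, h4, h5⟩)
  have e2 : ∀ x ∈ (Ω.filter (fun x => lam x = lam x0)).filter (fun x => IsCtr (M x)),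
      ((∑ y ∈ Ω.filter (fun y => lam y = lam x ∧ C y = C x ∧ IsCtr (M y)), f y) /
              ((Ω.filter (fun y => lam y = lam x ∧ C y = C x ∧ IsCtr (M y))).card : ℝ)
            - (∑ y ∈ Ω.filter (fun y => lam y = lam x ∧ C y = C x), f y) /
              ((Ω.filter (fun y => lam y = lam x ∧ C y = C x)).card : ℝ)) ^ 2
        = ((∑ y ∈ (Ω.filter (fun x => lam x = lam x0)).filter
                (fun y => C y = C x ∧ IsCtr (M y)), f y) /
              (((Ω.filter (fun x => lam x = lam x0)).filter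
                (fun y => C y = C x ∧ IsCtr (M y))).card : ℝ)
            - (∑ y ∈ (Ω.filter (fun x => lam x = lam x0)).filter (fun y => C y = C x), f y) /
              (((Ω.filter (fun x => lam x = lam x0)).filter (fun y => C y = C x)).card : ℝ)) ^ 2 := by
    intro x hx
    rw [key x (Finset.mem_of_mem_filter x hx) (fun y => C y = C x ∧ IsCtr (M y)),
      key x (Finset.mem_of_mem_filter x hx) (fun y => C y = C x)]
  have e3 : ∀ x ∈ (Ω.filter (fun x => lam x = lam x0)).filter (fun x => IsCtr (M x)),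
      ((∑ y ∈ Ω.filter (fun y => lam y = lam x ∧ A y = A x ∧ IsCtr (M y)), f y) /
              ((Ω.filter (fun y => lam y = lam x ∧ A y = A x ∧ IsCtr (M y))).card : ℝ)
            - (∑ y ∈ Ω.filter (fun y => lam y = lam x ∧ A y = A x), f y) /
              ((Ω.filter (fun y => lam y = lam x ∧ A y = A x)).card : ℝ)) ^ 2
        = ((∑ y ∈ (Ω.filter (fun x => lam x = lam x0)).filter
                (fun y => A y = A x ∧ IsCtr (M y)), f y) /
              (((Ω.filter (fun x => lam x = lam x0)).filter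
                (fun y => A y = A x ∧ IsCtr (M y))).card : ℝ)
            - (∑ y ∈ (Ω.filter (fun x => lam x = lam x0)).filter (fun y => A y = A x), f y) /
              (((Ω.filter (fun x => lam x = lam x0)).filter (fun y => A y = A x)).card : ℝ)) ^ 2 := by
    intro x hx
    rw [key x (Finset.mem_of_mem_filter x hx) (fun y => A y = A x ∧ IsCtr (M y)),
      key x (Finset.mem_of_mem_filter x hx) (fun y => A y = A x)]
  have e4 : ∀ x ∈ Ω.filter (fun x => lam x = lam x0),
      (f x - (∑ y ∈ Ω.filter (fun y => lam y = lam x ∧ C y = C x), f y) /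
              ((Ω.filter (fun y => lam y = lam x ∧ C y = C x)).card : ℝ)) *
          (f x - (∑ y ∈ Ω.filter (fun y => lam y = lam x ∧ A y = A x), f y) /
              ((Ω.filter (fun y => lam y = lam x ∧ A y = A x)).card : ℝ))
        = (f x - (∑ y ∈ (Ω.filter (fun x => lam x = lam x0)).filter (fun y => C y = C x), f y) /
              (((Ω.filter (fun x => lam x = lam x0)).filter (fun y => C y = C x)).card : ℝ)) *
          (f x - (∑ y ∈ (Ω.filter (fun x => lam x = lam x0)).filter (fun y => A y = A x), f y) /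
              (((Ω.filter (fun x => lam x = lam x0)).filter (fun y => A y = A x)).card : ℝ)) := by
    intro x hx
    rw [key x hx (fun y => C y = C x), key x hx (fun y => A y = A x)]
  rw [Finset.sum_congr rfl e2, Finset.sum_congr rfl e3, Finset.sum_congr rfl e4]
  exact h

end Crest.Agent.Helper67.SW
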