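import Crest.Agent.Helper67.SW.TwoPairFibre
import Crest.Agent.Helper67.SW.TwoPairGlobal
import Crest.Agent.Helper10.S0453.DP

/-!
# S0453 WP-E1: (TPL-graph) from the fibre form of the two-pair lemma

`tplGraph_of_spec : TwoPairSpec → TPLGraph d f` (helper10's interface of record), via the edge-set
fibre coordinates of `TwoPairFibre.lean` and the globalisation `twoPair_global`.
-/

set_option autoImplicit false

namespace Crest.Agent.Helper67.SW

open Finset Crest.SwitchChain Crest.Agent.Helper65.Switch Crest.Agent.Helper10.S0453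

variable {n : ℕ}

namespace Quad

variable (q : Quad n)

/-! ### helper10's vocabulary in block coordinates -/

theorem adj_au (G : Finset (Edge n)) : adj G q.a q.u ↔ (q.blk G).1 = true := by
  rw [adj_iff q.hau, q.blk_fst]; rfl

theorem adj_av (G : Finset (Edge n)) : adj G q.a q.v ↔ (q.blk G).2.1 = true := by
  rw [adj_iff q.hav, q.blk_snd]; rfl

theorem adj_bu (G : Finset (Edge n)) : adj G q.b q.u ↔ (q.blk G).2.2.1 = true := by
  rw [adj_iff q.hbu, q.blk_trd]; rfl

theorem adj_bv (G : Finset (Edge n)) : adj G q.b q.v ↔ (q.blk G).2.2.2 = true := by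
  rw [adj_iff q.hbv, q.blk_fth]; rfl

theorem swAt_iff (G : Finset (Edge n)) : SwAt G q.a q.b q.u q.v ↔ q.blk G = Blk.cp := by
  unfold SwAt
  rw [q.adj_au, q.adj_bv, q.adj_av, q.adj_bu]
  generalize q.blk G = M
  obtain ⟨x, y, z, w⟩ := M
  cases x <;> cases y <;> cases z <;> cases w <;> simp [Blk.cp]

theorem swAt_iff' (G : Finset (Edge n)) : SwAt G q.a q.b q.v q.u ↔ q.blk G = Blk.cm := by
  unfold SwAt
  rw [q.adj_au, q.adj_bv, q.adj_av, q.adj_bu]
  generalize q.blk G = M
  obtain ⟨x, y, z, w⟩ := M
  cases x <;> cases y <;> cases z <;> cases w <;> simp [Blk.cm]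

theorem split_iff (G : Finset (Edge n)) : Split G q.a q.b q.u q.v ↔ IsCtr (q.blk G) := by
  unfold Split IsCtr
  rw [q.swAt_iff, q.swAt_iff']
  rfl

theorem split_iff' (G : Finset (Edge n)) : Split G q.u q.v q.a q.b ↔ IsCtr (q.blk G) := by
  unfold Split IsCtr SwAt
  rw [adj_comm (x := q.u) (y := q.a), adj_comm (x := q.v) (y := q.b),
    adj_comm (x := q.u) (y := q.b), adj_comm (x := q.v) (y := q.a),
    q.adj_au, q.adj_bv, q.adj_av, q.adj_bu]
  generalize q.blk G = M
  obtain ⟨x, y, z, w⟩ := M
  cases x <;> cases y <;> cases z <;> cases w <;> simp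

theorem blk10_eq : Crest.Agent.Helper10.S0453.blk q.a q.b q.u q.v
    = {q.eau, q.ebv, q.eav, q.ebu} := by
  ext x
  simp only [Crest.Agent.Helper10.S0453.blk, Finset.mem_filter, Finset.mem_univ, true_and,
    Finset.mem_insert, Finset.mem_singleton, eau, eav, ebu, ebv, mkE, Subtype.ext_iff]

/-- at a `cp` state helper10's `flip` is the graph with the same `R`, `A`, `C` parts and block
`cm`. -/
theorem flip_eq {G : Finset (Edge n)} (h : q.blk G = Blk.cp) :
    Helper10.S0453.flip q.a q.b q.u q.v G = q.assemble (q.partR G) (q.partA G) (q.partC G) Blk.cm := by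
  rw [← q.switch_cp h]
  have h1 : q.eau ∈ G := (q.blk_fst G).1 (by rw [h]; rfl)
  have h2 : q.eav ∉ G := fun hh => by
    have := (q.blk_snd G).2 hh; rw [h] at this; exact absurd this (by decide)
  have h3 : q.ebu ∉ G := fun hh => by
    have := (q.blk_trd G).2 hh; rw [h] at this; exact absurd this (by decide)
  have h4 : q.ebv ∈ G := (q.blk_fth G).1 (by rw [h]; rfl)
  unfold Helper10.S0453.flip
  rw [q.blk10_eq]
  ext x
  simp only [Finset.mem_symmDiff, Finset.mem_insert, Finset.mem_singleton, Finset.mem_union,
    Finset.mem_sdiff]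
  by_cases e1 : x = q.eau
  · subst e1; simp [h1, q.eau_ne_eav, q.eau_ne_ebu]
  by_cases e2 : x = q.ebv
  · subst e2; simp [h4, q.eav_ne_ebv.symm, q.ebu_ne_ebv.symm]
  by_cases e3 : x = q.eav
  · subst e3; simp [h2]
  by_cases e4 : x = q.ebu
  · subst e4; simp [h3]
  simp [e1, e2, e3, e4]

variable {d : Fin n → ℕ}

/-- the flipped graph of a `cp` realization: a realization in the same fibre, block `cm`, same
`A`- and `C`-parts. -/
theorem flip_mem {G : Finset (Edge n)} (hG : G ∈ realizations d) (h : q.blk G = Blk.cp) :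
    Helper10.S0453.flip q.a q.b q.u q.v G ∈ realizations d ∧
      q.key (Helper10.S0453.flip q.a q.b q.u q.v G) = q.key G ∧
      q.blk (Helper10.S0453.flip q.a q.b q.u q.v G) = Blk.cm ∧
      q.partA (Helper10.S0453.flip q.a q.b q.u q.v G) = q.partA G ∧
      q.partC (Helper10.S0453.flip q.a q.b q.u q.v G) = q.partC G := by
  rw [q.flip_eq h]
  obtain ⟨-, hA, hC⟩ := q.coords_mem hG hG rfl
  rw [h] at hA hC
  exact q.assemble_mem hG (M := Blk.cm) (by rw [h]; rfl) hA hC

/-- the class of `~_{ab}` in fibre coordinates. -/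
theorem cls_P {G : Finset (Edge n)} (hG : G ∈ realizations d) :
    cls d {q.a, q.b} G
      = (realizations d).filter (fun G' => q.key G' = q.key G ∧ q.partC G' = q.partC G) := by
  ext G'
  rw [mem_cls, Finset.mem_filter]
  constructor
  · rintro ⟨hG', hh⟩
    exact ⟨hG', (q.offP_eq_iff hG hG').1 hh⟩
  · rintro ⟨hG', hh⟩
    exact ⟨hG', (q.offP_eq_iff hG hG').2 hh⟩

/-- the class of `~_{uv}` in fibre coordinates. -/
theorem cls_Q {G : Finset (Edge n)} (hG : G ∈ realizations d) :
    cls d {q.u, q.v} G
      = (realizations d).filter (fun G' => q.key G' = q.key G ∧ q.partA G' = q.partA G) := by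
  ext G'
  rw [mem_cls, Finset.mem_filter]
  constructor
  · rintro ⟨hG', hh⟩
    exact ⟨hG', (q.offQ_eq_iff hG hG').1 hh⟩
  · rintro ⟨hG', hh⟩
    exact ⟨hG', (q.offQ_eq_iff hG hG').2 hh⟩

end Quad

/-- (TPL-graph) for one quadruple, from the fibre form of the two-pair lemma. -/
theorem tpl_quad (hS : TwoPairSpec) (d : Fin n → ℕ) (f : Finset (Edge n) → ℝ) (q : Quad n) :
    Sw d q.a q.b q.u q.v f - Bad d q.a q.b q.u q.v f - Bad d q.u q.v q.a q.b f
      ≤ 2 * IPair d f {q.a, q.b} {q.u, q.v} := by
  classical
  have h := twoPair_global hS (realizations d) q.key q.blk q.partA q.partC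
    (Helper10.S0453.flip q.a q.b q.u q.v) f
    (fun x _ y _ hk hM hA hC => q.inj hk hM hA hC)
    (fun G0 hG0 => ⟨(q.blk G0).tot, q.As d G0, q.Cs d G0, fun M0 a c => q.image hG0 M0 a c,
      fun r r' hr => by
        rw [Finset.disjoint_left]
        intro A hA hA'
        rw [q.mem_As] at hA hA'
        exact hr (by omega),
      fun k k' hk => by
        rw [Finset.disjoint_left]
        intro C hC hC'
        rw [q.mem_Cs] at hC hC'
        exact hk (by omega)⟩)
    (fun G hG hM => q.flip_mem hG hM)
  rw [Sw_def, Bad_def, Bad_def]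
  unfold IPair
  have e1 : (realizations d).filter (fun G => SwAt G q.a q.b q.u q.v)
      = (realizations d).filter (fun G => q.blk G = (true, false, false, true)) :=
    Finset.filter_congr (fun G _ => q.swAt_iff G)
  have e2 : (realizations d).filter (fun G => Split G q.a q.b q.u q.v)
      = (realizations d).filter (fun G => IsCtr (q.blk G)) :=
    Finset.filter_congr (fun G _ => q.split_iff G)
  have e3 : (realizations d).filter (fun G => Split G q.u q.v q.a q.b)
      = (realizations d).filter (fun G => IsCtr (q.blk G)) :=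
    Finset.filter_congr (fun G _ => q.split_iff' G)
  rw [e1, e2, e3]
  have t2 : ∀ G ∈ (realizations d).filter (fun G => IsCtr (q.blk G)),
      ((∑ G' ∈ (cls d {q.a, q.b} G).filter (fun G' => Split G' q.a q.b q.u q.v), f G') /
          (((cls d {q.a, q.b} G).filter (fun G' => Split G' q.a q.b q.u q.v)).card : ℝ)
        - Qavg d {q.a, q.b} f G) ^ 2
      = ((∑ y ∈ (realizations d).filter
              (fun y => q.key y = q.key G ∧ q.partC y = q.partC G ∧ IsCtr (q.blk y)), f y) /
            (((realizations d).filter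
              (fun y => q.key y = q.key G ∧ q.partC y = q.partC G ∧ IsCtr (q.blk y))).card : ℝ)
          - (∑ y ∈ (realizations d).filter
              (fun y => q.key y = q.key G ∧ q.partC y = q.partC G), f y) /
            (((realizations d).filter
              (fun y => q.key y = q.key G ∧ q.partC y = q.partC G)).card : ℝ)) ^ 2 := by
    intro G hG
    have hGΩ := Finset.mem_of_mem_filter G hG
    have c1 : (cls d {q.a, q.b} G).filter (fun G' => Split G' q.a q.b q.u q.v)
        = (realizations d).filter
            (fun y => q.key y = q.key G ∧ q.partC y = q.partC G ∧ IsCtr (q.blk y)) := by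
      rw [q.cls_P hGΩ, Finset.filter_filter]
      exact Finset.filter_congr (fun y _ => by rw [q.split_iff, and_assoc])
    rw [c1, Qavg_def, q.cls_P hGΩ]
  have t3 : ∀ G ∈ (realizations d).filter (fun G => IsCtr (q.blk G)),
      ((∑ G' ∈ (cls d {q.u, q.v} G).filter (fun G' => Split G' q.u q.v q.a q.b), f G') /
          (((cls d {q.u, q.v} G).filter (fun G' => Split G' q.u q.v q.a q.b)).card : ℝ)
        - Qavg d {q.u, q.v} f G) ^ 2
      = ((∑ y ∈ (realizations d).filter
              (fun y => q.key y = q.key G ∧ q.partA y = q.partA G ∧ IsCtr (q.blk y)), f y) /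
            (((realizations d).filter
              (fun y => q.key y = q.key G ∧ q.partA y = q.partA G ∧ IsCtr (q.blk y))).card : ℝ)
          - (∑ y ∈ (realizations d).filter
              (fun y => q.key y = q.key G ∧ q.partA y = q.partA G), f y) /
            (((realizations d).filter
              (fun y => q.key y = q.key G ∧ q.partA y = q.partA G)).card : ℝ)) ^ 2 := by
    intro G hG
    have hGΩ := Finset.mem_of_mem_filter G hG
    have c1 : (cls d {q.u, q.v} G).filter (fun G' => Split G' q.u q.v q.a q.b)
        = (realizations d).filter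
            (fun y => q.key y = q.key G ∧ q.partA y = q.partA G ∧ IsCtr (q.blk y)) := by
      rw [q.cls_Q hGΩ, Finset.filter_filter]
      exact Finset.filter_congr (fun y _ => by rw [q.split_iff', and_assoc])
    rw [c1, Qavg_def, q.cls_Q hGΩ]
  have t4 : ∀ G ∈ realizations d,
      Rop d {q.a, q.b} f G * Rop d {q.u, q.v} f G
      = (f G - (∑ y ∈ (realizations d).filter
              (fun y => q.key y = q.key G ∧ q.partC y = q.partC G), f y) /
            (((realizations d).filter
              (fun y => q.key y = q.key G ∧ q.partC y = q.partC G)).card : ℝ)) *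
        (f G - (∑ y ∈ (realizations d).filter
              (fun y => q.key y = q.key G ∧ q.partA y = q.partA G), f y) /
            (((realizations d).filter
              (fun y => q.key y = q.key G ∧ q.partA y = q.partA G)).card : ℝ)) := by
    intro G hG
    rw [Rop_def, Rop_def, Qavg_def, Qavg_def, q.cls_P hG, q.cls_Q hG]
  rw [Finset.sum_congr rfl t2, Finset.sum_congr rfl t3, Finset.sum_congr rfl t4]
  exact h

/-- **(TPL-graph)** in helper10's shape, from the fibre form `TwoPairSpec` of the abstract
two-pair lemma. -/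
theorem tplGraph_of_spec (hS : TwoPairSpec) (d : Fin n → ℕ) (f : Finset (Edge n) → ℝ) :
    TPLGraph d f := by
  intro a b c e hD
  obtain ⟨hab, hac, hae, hbc, hbe, hce⟩ := hD
  exact tpl_quad hS d f ⟨a, b, c, e, hab, hac, hae, hbc, hbe, hce⟩

end Crest.Agent.Helper67.SW
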